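import Mathlib

/-!
# A covariance bound on the Johnson scheme (support for P335)

On the `k`-subsets `S` of a finite set `V` let `chi w z S = 1` when exactly one of `w`, `z` lies
in `S` (and `0` otherwise).  For every function `ψ` of mean zero on the `k`-subsets,

`∑_{(w,z)} (∑_S ψ S * chi w z S)^2 ≤ (|V| - 2) * N₁ * ∑_S ψ S ^ 2`,

where `N₁` is the number of `k`-subsets split by a pair of distinct points.  The proof uses only
the invariance of the family of `k`-subsets under permutations of `V` and two applications of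
the Cauchy-Schwarz inequality.
-/

namespace Vale.Agent.H32.KTV

open Finset

variable {V : Type*} [DecidableEq V]

/-- `chi w z S = 1` if exactly one of `w`, `z` lies in `S`, else `0`. -/
def chi (w z : V) (S : Finset V) : ℝ := if (w ∈ S ↔ z ∈ S) then 0 else 1

lemma chi_self (w : V) (S : Finset V) : chi w w S = 0 := by simp [chi]

lemma chi_comm (w z : V) (S : Finset V) : chi w z S = chi z w S := by
  unfold chi
  by_cases h1 : w ∈ S <;> by_cases h2 : z ∈ S <;> simp [h1, h2]

lemma chi_mul_self (w z : V) (S : Finset V) : chi w z S * chi w z S = chi w z S := by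
  unfold chi
  split_ifs <;> simp

lemma chi_nonneg (w z : V) (S : Finset V) : 0 ≤ chi w z S := by
  unfold chi
  split_ifs <;> norm_num

lemma chi_le_one (w z : V) (S : Finset V) : chi w z S ≤ 1 := by
  unfold chi
  split_ifs <;> norm_num

lemma chi_triangle (w z y : V) (S : Finset V) :
    2 * (chi w z S * chi w y S + chi w z S * chi z y S + chi w y S * chi z y S)
      = chi w z S + chi w y S + chi z y S := by
  unfold chi
  by_cases h1 : w ∈ S <;> by_cases h2 : z ∈ S <;> by_cases h3 : y ∈ S <;>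
    simp [h1, h2, h3] <;> norm_num

lemma chi_map (σ : Equiv.Perm V) (w z : V) (S : Finset V) :
    chi (σ w) (σ z) (S.map σ.toEmbedding) = chi w z S := by
  unfold chi
  simp

lemma chi_eq_prod (w z : V) (S : Finset V) :
    chi w z S = (if w ∈ S then 1 else 0) * (1 - if z ∈ S then 1 else 0)
      + (1 - if w ∈ S then 1 else 0) * (if z ∈ S then (1 : ℝ) else 0) := by
  unfold chi
  by_cases h1 : w ∈ S <;> by_cases h2 : z ∈ S <;> simp [h1, h2]

variable [Fintype V]

/-- The number of ordered pairs split by `S`. -/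
lemma sum_sum_chi (S : Finset V) :
    ∑ w, ∑ z, chi w z S = 2 * (S.card : ℝ) * ((Fintype.card V : ℝ) - S.card) := by
  have h1 : ∑ w : V, (if w ∈ S then (1 : ℝ) else 0) = S.card := by
    rw [Finset.sum_boole]
    simp
  have h2 : ∑ w : V, (1 - if w ∈ S then (1 : ℝ) else 0) = (Fintype.card V : ℝ) - S.card := by
    rw [Finset.sum_sub_distrib, h1]
    simp
  simp only [chi_eq_prod, Finset.sum_add_distrib, ← Finset.mul_sum, ← Finset.sum_mul, h1, h2]
  ring

omit [DecidableEq V] in
/-- Sums over the `k`-subsets are invariant under permutations of the ground set. -/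
lemma sum_powersetCard_map (k : ℕ) (σ : Equiv.Perm V) (g : Finset V → ℝ) :
    ∑ S ∈ (univ : Finset V).powersetCard k, g (S.map σ.toEmbedding)
      = ∑ S ∈ (univ : Finset V).powersetCard k, g S := by
  refine Finset.sum_equiv (Equiv.finsetCongr σ) ?_ ?_
  · intro S
    simp [Finset.mem_powersetCard]
  · intro S _
    simp

/-- Mixed second moments of the split indicators. -/
noncomputable def M (k : ℕ) (w z w' z' : V) : ℝ :=
  ∑ S ∈ (univ : Finset V).powersetCard k, chi w z S * chi w' z' S

/-- The number of `k`-subsets split by the pair `w`, `z`. -/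
noncomputable def Nn (k : ℕ) (w z : V) : ℝ :=
  ∑ S ∈ (univ : Finset V).powersetCard k, chi w z S

lemma M_perm (k : ℕ) (σ : Equiv.Perm V) (w z w' z' : V) :
    M k (σ w) (σ z) (σ w') (σ z') = M k w z w' z' := by
  unfold M
  rw [← sum_powersetCard_map k σ (fun S => chi (σ w) (σ z) S * chi (σ w') (σ z') S)]
  simp only [chi_map]

lemma M_self (k : ℕ) (w z : V) : M k w z w z = Nn k w z := by
  unfold M Nn
  simp only [chi_mul_self]

lemma M_comm_left (k : ℕ) (w z w' z' : V) : M k w z w' z' = M k z w w' z' := by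
  unfold M
  simp only [chi_comm w z]

lemma M_comm_right (k : ℕ) (w z w' z' : V) : M k w z w' z' = M k w z z' w' := by
  unfold M
  simp only [chi_comm w' z']

lemma M_nonneg (k : ℕ) (w z w' z' : V) : 0 ≤ M k w z w' z' :=
  Finset.sum_nonneg fun _ _ => mul_nonneg (chi_nonneg _ _ _) (chi_nonneg _ _ _)

lemma M_le (k : ℕ) (w z w' z' : V) : M k w z w' z' ≤ Nn k w z := by
  unfold M Nn
  refine Finset.sum_le_sum fun S _ => ?_
  have h1 := chi_nonneg w z S
  have h2 := chi_le_one w' z' S
  nlinarith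

lemma Nn_nonneg (k : ℕ) (w z : V) : 0 ≤ Nn k w z :=
  Finset.sum_nonneg fun _ _ => chi_nonneg _ _ _

omit [DecidableEq V] [Fintype V] in
lemma exists_perm2 [Finite V] {w z x y : V} (h : w ≠ z) (h' : x ≠ y) :
    ∃ σ : Equiv.Perm V, σ w = x ∧ σ z = y := by
  obtain ⟨σ, hσ⟩ := Equiv.Perm.exists_extending_pair (α := Fin 2) ![w, z] ![x, y]
    (by intro i j hij; fin_cases i <;> fin_cases j <;> simp_all)
    (by intro i j hij; fin_cases i <;> fin_cases j <;> simp_all)
  exact ⟨σ, hσ 0, hσ 1⟩

omit [DecidableEq V] [Fintype V] in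
lemma exists_perm3 [Finite V] {w z y a b c : V} (h1 : w ≠ z) (h2 : w ≠ y) (h3 : z ≠ y)
    (h1' : a ≠ b) (h2' : a ≠ c) (h3' : b ≠ c) :
    ∃ σ : Equiv.Perm V, σ w = a ∧ σ z = b ∧ σ y = c := by
  obtain ⟨σ, hσ⟩ := Equiv.Perm.exists_extending_pair (α := Fin 3) ![w, z, y] ![a, b, c]
    (by intro i j hij; fin_cases i <;> fin_cases j <;> simp_all)
    (by intro i j hij; fin_cases i <;> fin_cases j <;> simp_all)
  exact ⟨σ, hσ 0, hσ 1, hσ 2⟩

omit [DecidableEq V] [Fintype V] in
lemma exists_perm4 [Finite V] {w z y x a b c d : V} (h1 : w ≠ z) (h2 : w ≠ y) (h3 : w ≠ x)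
    (h4 : z ≠ y) (h5 : z ≠ x) (h6 : y ≠ x)
    (h1' : a ≠ b) (h2' : a ≠ c) (h3' : a ≠ d) (h4' : b ≠ c) (h5' : b ≠ d) (h6' : c ≠ d) :
    ∃ σ : Equiv.Perm V, σ w = a ∧ σ z = b ∧ σ y = c ∧ σ x = d := by
  obtain ⟨σ, hσ⟩ := Equiv.Perm.exists_extending_pair (α := Fin 4) ![w, z, y, x] ![a, b, c, d]
    (by intro i j hij; fin_cases i <;> fin_cases j <;> simp_all)
    (by intro i j hij; fin_cases i <;> fin_cases j <;> simp_all)
  exact ⟨σ, hσ 0, hσ 1, hσ 2, hσ 3⟩

/-- The number of `k`-subsets split by a pair of distinct points does not depend on the pair. -/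
lemma Nn_eq (k : ℕ) {w z x y : V} (h : w ≠ z) (h' : x ≠ y) : Nn k w z = Nn k x y := by
  obtain ⟨σ, h1, h2⟩ := exists_perm2 h h'
  rw [← M_self, ← M_self, ← h1, ← h2, M_perm]

/-- Two pairs sharing exactly one point: half of the subsets split by the first pair are split
by the second one. -/
lemma M_share (k : ℕ) {w z y : V} (h1 : w ≠ z) (h2 : w ≠ y) (h3 : z ≠ y) :
    M k w z w y = Nn k w z / 2 := by
  have tri : 2 * (M k w z w y + M k w z z y + M k w y z y) = Nn k w z + Nn k w y + Nn k z y := by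
    unfold M Nn
    rw [← Finset.sum_add_distrib, ← Finset.sum_add_distrib, ← Finset.sum_add_distrib,
      ← Finset.sum_add_distrib, Finset.mul_sum]
    exact Finset.sum_congr rfl fun S _ => chi_triangle w z y S
  have e1 : M k w z z y = M k w z w y := by
    obtain ⟨σ, s1, s2, s3⟩ := exists_perm3 h1 h2 h3 h1.symm h3 h2
    rw [M_comm_left k w z z y, ← M_perm k σ w z w y, s1, s2, s3]
  have e2 : M k w y z y = M k w z w y := by
    obtain ⟨σ, s1, s2, s3⟩ := exists_perm3 h1 h2 h3 h2.symm h3.symm h1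
    rw [M_comm_left k w y z y, M_comm_right k y w z y, ← M_perm k σ w z w y, s1, s2, s3]
  have e3 : Nn k w y = Nn k w z := Nn_eq k h2 h1
  have e4 : Nn k z y = Nn k w z := Nn_eq k h3 h1
  rw [e1, e2, e3, e4] at tri
  linarith

/-! ### Elementary sums with Kronecker deltas -/

omit [DecidableEq V] in
lemma dsum_left [DecidableEq V] (f : V → V → ℝ) (w : V) :
    ∑ a, ∑ b, f a b * (if a = w then 1 else 0) = ∑ b, f w b := by
  simp only [mul_ite, mul_one, mul_zero]
  rw [Finset.sum_comm]
  simp

omit [DecidableEq V] in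
lemma dsum_right [DecidableEq V] (f : V → V → ℝ) (w : V) :
    ∑ a, ∑ b, f a b * (if b = w then 1 else 0) = ∑ a, f a w := by
  simp only [mul_ite, mul_one, mul_zero]
  simp

omit [DecidableEq V] in
lemma dsum_both [DecidableEq V] (f : V → V → ℝ) (w z : V) :
    ∑ a, ∑ b, f a b * ((if a = w then 1 else 0) * (if b = z then 1 else 0)) = f w z := by
  have h : ∀ a b : V, f a b * ((if a = w then (1 : ℝ) else 0) * (if b = z then 1 else 0))
      = if a = w then (if b = z then f a b else 0) else 0 := by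
    intro a b
    by_cases h1 : a = w <;> by_cases h2 : b = z <;> simp [h1, h2]
  simp only [h]
  rw [Finset.sum_comm]
  simp

/-- The incidence inequality: for a symmetric array with zero diagonal and zero total sum, the
squares of the row sums are controlled by the squares of the entries, with constant
`(|V| - 2) / 2`. -/
lemma incidence (c : V → V → ℝ) (hc0 : ∀ w, c w w = 0) (hcs : ∀ w z, c w z = c z w)
    (hT : ∑ w, ∑ z, c w z = 0) (hD : 2 ≤ Fintype.card V) :
    2 * ∑ w, (∑ z, c w z) ^ 2 ≤ ((Fintype.card V : ℝ) - 2) * ∑ w, ∑ z, c w z ^ 2 := by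
  set s : V → ℝ := fun w => ∑ z, c w z with hs
  set Sg : ℝ := ∑ w, s w ^ 2 with hSg
  set Q : ℝ := ∑ w, ∑ z, c w z ^ 2 with hQ
  have hD' : (2 : ℝ) ≤ (Fintype.card V : ℝ) := by exact_mod_cast hD
  have hSg0 : 0 ≤ Sg := Finset.sum_nonneg fun w _ => sq_nonneg _
  have hQ0 : 0 ≤ Q := Finset.sum_nonneg fun w _ => Finset.sum_nonneg fun z _ => sq_nonneg _
  have hsum : ∑ w, s w = 0 := hT
  -- Cauchy-Schwarz over ordered pairs
  have cs := Finset.sum_mul_sq_le_sq_mul_sq (univ : Finset (V × V)) (fun p => c p.1 p.2)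
    (fun p => if p.1 = p.2 then 0 else s p.1 + s p.2)
  rw [Fintype.sum_prod_type, Fintype.sum_prod_type, Fintype.sum_prod_type] at cs
  simp only at cs
  -- the pairing
  have e1 : ∑ w, ∑ z, c w z * (if w = z then 0 else s w + s z) = 2 * Sg := by
    have h : ∀ w z, c w z * (if w = z then 0 else s w + s z) = c w z * s w + c w z * s z := by
      intro w z
      by_cases hwz : w = z
      · subst hwz
        simp [hc0]
      · simp [hwz, mul_add]
    simp only [h, Finset.sum_add_distrib]
    have h1 : ∑ w, ∑ z, c w z * s w = Sg := by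
      rw [hSg]
      refine Finset.sum_congr rfl fun w _ => ?_
      rw [← Finset.sum_mul, sq]
    have h2 : ∑ w, ∑ z, c w z * s z = Sg := by
      rw [Finset.sum_comm, hSg]
      refine Finset.sum_congr rfl fun z _ => ?_
      rw [← Finset.sum_mul, sq]
      congr 1
      exact Finset.sum_congr rfl fun w _ => hcs w z
    rw [h1, h2]
    ring
  -- the second factor
  have e2 : ∑ w, ∑ z, (if w = z then 0 else s w + s z) ^ 2
      = (2 * (Fintype.card V : ℝ) - 4) * Sg := by
    have h : ∀ w z, (if w = z then 0 else s w + s z) ^ 2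
        = (s w ^ 2 + 2 * (s w * s z) + s z ^ 2) - (if w = z then 4 * s w ^ 2 else 0) := by
      intro w z
      by_cases hwz : w = z
      · subst hwz
        simp
        ring
      · simp [hwz]
        ring
    simp only [h, Finset.sum_sub_distrib, Finset.sum_add_distrib, Finset.sum_ite_eq,
      Finset.mem_univ, if_true, Finset.sum_const, Finset.card_univ, nsmul_eq_mul,
      ← Finset.mul_sum, ← Finset.sum_mul, hsum]
    rw [← hSg]
    ring
  rw [e1, e2] at cs
  -- conclude
  by_cases hS : Sg = 0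
  · rw [hS]
    have : 0 ≤ ((Fintype.card V : ℝ) - 2) * Q := mul_nonneg (by linarith) hQ0
    linarith
  · have hSpos : 0 < Sg := lt_of_le_of_ne hSg0 (Ne.symm hS)
    have h4 : (2 * Sg) ^ 2 ≤ Q * ((2 * (Fintype.card V : ℝ) - 4) * Sg) := cs
    have h5 : 2 * Sg * (2 * Sg) ≤ (((Fintype.card V : ℝ) - 2) * Q) * (2 * Sg) := by
      nlinarith
    exact le_of_mul_le_mul_right h5 (by linarith)

omit [DecidableEq V] in
lemma sum_mul_row (c : V → V → ℝ) :
    ∑ w, ∑ z, c w z * (∑ y, c w y) = ∑ w, (∑ z, c w z) ^ 2 := by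
  refine Finset.sum_congr rfl fun w _ => ?_
  rw [← Finset.sum_mul, sq]

omit [DecidableEq V] in
lemma sum_mul_col (c : V → V → ℝ) (hcs : ∀ w z, c w z = c z w) :
    ∑ w, ∑ z, c w z * (∑ y, c z y) = ∑ w, (∑ z, c w z) ^ 2 := by
  rw [Finset.sum_comm]
  refine Finset.sum_congr rfl fun z _ => ?_
  rw [← Finset.sum_mul, sq]
  congr 1
  exact Finset.sum_congr rfl fun w _ => hcs w z

omit [DecidableEq V] in
lemma four_le_card {w z a b : V} (h1 : w ≠ z) (h2 : w ≠ a) (h3 : w ≠ b) (h4 : z ≠ a)
    (h5 : z ≠ b) (h6 : a ≠ b) : 4 ≤ Fintype.card V := by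
  have hinj : Function.Injective ![w, z, a, b] := by
    intro i j hij
    fin_cases i <;> fin_cases j <;> simp_all
  have := Fintype.card_le_of_injective _ hinj
  simpa using this

/-- The value of the mixed second moment in terms of the coincidences between two pairs. -/
lemma M_formula (k : ℕ) {N₁ B : ℝ} (hN : ∀ w z : V, w ≠ z → Nn k w z = N₁)
    (hB : ∀ w z a b : V, w ≠ z → w ≠ a → w ≠ b → z ≠ a → z ≠ b → a ≠ b → M k w z a b = B)
    {w z a b : V} (hwz : w ≠ z) (hab : a ≠ b) :
    M k w z a b = B + (N₁ / 2 - B) * ((if a = w then 1 else 0) + (if b = w then 1 else 0)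
        + (if a = z then 1 else 0) + (if b = z then 1 else 0))
      + B * ((if a = w then 1 else 0) * (if b = z then 1 else 0)
        + (if a = z then 1 else 0) * (if b = w then 1 else 0)) := by
  have hzw : z ≠ w := Ne.symm hwz
  by_cases haw : a = w
  · have hbw : b ≠ w := fun h => hab (haw.trans h.symm)
    have haz : a ≠ z := fun h => hwz (haw.symm.trans h)
    by_cases hbz : b = z
    · have hM : M k w z w z = N₁ := by rw [M_self, hN w z hwz]
      simp only [haw, hbz, hwz, hzw, if_true, if_false]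
      linarith
    · have hM : M k w z w b = N₁ / 2 := by
        rw [M_share k hwz (fun h => hbw h.symm) (fun h => hbz h.symm), hN w z hwz]
      simp only [haw, hbz, hbw, hwz, if_true, if_false]
      linarith
  · by_cases haz : a = z
    · have hbz : b ≠ z := fun h => hab (haz.trans h.symm)
      by_cases hbw : b = w
      · have hM : M k w z z w = N₁ := by
          rw [M_comm_right, M_self, hN w z hwz]
        simp only [haz, hbw, hwz, hzw, if_true, if_false]
        linarith
      · have hM : M k w z z b = N₁ / 2 := by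
          rw [M_comm_left, M_share k hzw (fun h => hbz h.symm) (fun h => hbw h.symm),
            hN z w hzw]
        simp only [haz, hbz, hbw, hzw, if_true, if_false]
        linarith
    · by_cases hbw : b = w
      · have hbz : b ≠ z := fun h => hwz (hbw.symm.trans h)
        have hM : M k w z a w = N₁ / 2 := by
          rw [M_comm_right, M_share k hwz (fun h => haw h.symm) (fun h => haz h.symm),
            hN w z hwz]
        simp only [haw, haz, hbw, hwz, if_true, if_false]
        linarith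
      · by_cases hbz : b = z
        · have hM : M k w z a z = N₁ / 2 := by
            rw [M_comm_left, M_comm_right,
              M_share k hzw (fun h => haz h.symm) (fun h => haw h.symm), hN z w hzw]
          simp only [haw, haz, hbz, hzw, if_true, if_false]
          linarith
        · have hM : M k w z a b = B :=
            hB w z a b hwz (fun h => haw h.symm) (fun h => hbw h.symm) (fun h => haz h.symm)
              (fun h => hbz h.symm) hab
          simp only [haw, haz, hbw, hbz, if_false]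
          linarith

/-- **Covariance bound on the Johnson scheme.**  For `ψ` of mean zero on the `k`-subsets of `V`,
the sum over ordered pairs `(w, z)` of the squared sums of `ψ` over the `k`-subsets split by
`{w, z}` is at most `(|V| - 2) * N₁ * ∑ ψ ^ 2`, where `N₁ = Nn k w₀ z₀` is the number of
`k`-subsets split by a pair of distinct points. -/
theorem johnson_cov_sq_le (k : ℕ) (ψ : Finset V → ℝ)
    (hψ : ∑ S ∈ (univ : Finset V).powersetCard k, ψ S = 0) {w₀ z₀ : V} (h₀ : w₀ ≠ z₀) :
    ∑ w, ∑ z, (∑ S ∈ (univ : Finset V).powersetCard k, ψ S * chi w z S) ^ 2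
      ≤ ((Fintype.card V : ℝ) - 2) * Nn k w₀ z₀
          * ∑ S ∈ (univ : Finset V).powersetCard k, ψ S ^ 2 := by
  set J := (univ : Finset V).powersetCard k with hJ
  set c : V → V → ℝ := fun w z => ∑ S ∈ J, ψ S * chi w z S with hc
  have hc0 : ∀ w, c w w = 0 := by
    intro w
    simp [hc, chi_self]
  have hcs : ∀ w z, c w z = c z w := by
    intro w z
    simp only [hc]
    exact Finset.sum_congr rfl fun S _ => by rw [chi_comm]
  have hD : 2 ≤ Fintype.card V := Fintype.one_lt_card_iff.mpr ⟨w₀, z₀, h₀⟩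
  have hDr : (2 : ℝ) ≤ (Fintype.card V : ℝ) := by exact_mod_cast hD
  -- the total sum of `c` vanishes
  have hT : ∑ w, ∑ z, c w z = 0 := by
    calc ∑ w, ∑ z, c w z = ∑ w, ∑ S ∈ J, ∑ z, ψ S * chi w z S :=
          Finset.sum_congr rfl fun w _ => Finset.sum_comm
      _ = ∑ S ∈ J, ∑ w, ∑ z, ψ S * chi w z S := Finset.sum_comm
      _ = ∑ S ∈ J, ψ S * (∑ w, ∑ z, chi w z S) := by
          refine Finset.sum_congr rfl fun S _ => ?_
          simp only [Finset.mul_sum]
      _ = ∑ S ∈ J, ψ S * (2 * (k : ℝ) * ((Fintype.card V : ℝ) - k)) := by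
          refine Finset.sum_congr rfl fun S hS => ?_
          rw [sum_sum_chi, (Finset.mem_powersetCard.mp hS).2]
      _ = 0 := by rw [← Finset.sum_mul, hψ, zero_mul]
  set s : V → ℝ := fun w => ∑ z, c w z with hs
  set Q : ℝ := ∑ w, ∑ z, c w z ^ 2 with hQ
  set Sg : ℝ := ∑ w, s w ^ 2 with hSg
  set Ψ : ℝ := ∑ S ∈ J, ψ S ^ 2 with hΨ
  set F : Finset V → ℝ := fun S => ∑ w, ∑ z, c w z * chi w z S with hF
  set X : ℝ := ∑ S ∈ J, F S ^ 2 with hX
  set N₁ : ℝ := Nn k w₀ z₀ with hN₁
  have hQ0 : 0 ≤ Q := Finset.sum_nonneg fun w _ => Finset.sum_nonneg fun z _ => sq_nonneg _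
  have hSg0 : 0 ≤ Sg := Finset.sum_nonneg fun w _ => sq_nonneg _
  have hΨ0 : 0 ≤ Ψ := Finset.sum_nonneg fun S _ => sq_nonneg _
  have hN0 : 0 ≤ N₁ := Nn_nonneg k w₀ z₀
  have hN : ∀ w z : V, w ≠ z → Nn k w z = N₁ := fun w z h => Nn_eq k h h₀
  -- `Q` is the pairing of `ψ` with `F`
  have hQF : Q = ∑ S ∈ J, ψ S * F S := by
    calc Q = ∑ w, ∑ z, ∑ S ∈ J, c w z * (ψ S * chi w z S) := by
          refine Finset.sum_congr rfl fun w _ => Finset.sum_congr rfl fun z _ => ?_
          rw [← Finset.mul_sum, sq]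
      _ = ∑ w, ∑ S ∈ J, ∑ z, c w z * (ψ S * chi w z S) :=
          Finset.sum_congr rfl fun w _ => Finset.sum_comm
      _ = ∑ S ∈ J, ∑ w, ∑ z, c w z * (ψ S * chi w z S) := Finset.sum_comm
      _ = ∑ S ∈ J, ψ S * F S := by
          refine Finset.sum_congr rfl fun S _ => ?_
          simp only [hF, Finset.mul_sum]
          refine Finset.sum_congr rfl fun w _ => Finset.sum_congr rfl fun z _ => ?_
          ring
  -- Cauchy-Schwarz
  have hCS : Q ^ 2 ≤ Ψ * X := by
    rw [hQF]
    exact Finset.sum_mul_sq_le_sq_mul_sq J ψ F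
  -- the second moment of `F`
  set H : V → V → ℝ := fun w z => ∑ S ∈ J, chi w z S * F S with hH
  have hXH : X = ∑ w, ∑ z, c w z * H w z := by
    calc X = ∑ S ∈ J, ∑ w, ∑ z, c w z * (chi w z S * F S) := by
          refine Finset.sum_congr rfl fun S _ => ?_
          rw [sq]
          conv_lhs => rw [hF]
          simp only [Finset.sum_mul]
          refine Finset.sum_congr rfl fun w _ => Finset.sum_congr rfl fun z _ => ?_
          ring
      _ = ∑ w, ∑ S ∈ J, ∑ z, c w z * (chi w z S * F S) := Finset.sum_comm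
      _ = ∑ w, ∑ z, ∑ S ∈ J, c w z * (chi w z S * F S) :=
          Finset.sum_congr rfl fun w _ => Finset.sum_comm
      _ = ∑ w, ∑ z, c w z * H w z := by
          refine Finset.sum_congr rfl fun w _ => Finset.sum_congr rfl fun z _ => ?_
          rw [← Finset.mul_sum]
  have hHM : ∀ w z, H w z = ∑ a, ∑ b, c a b * M k w z a b := by
    intro w z
    calc H w z = ∑ S ∈ J, ∑ a, ∑ b, c a b * (chi w z S * chi a b S) := by
          refine Finset.sum_congr rfl fun S _ => ?_
          simp only [hF, Finset.mul_sum]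
          refine Finset.sum_congr rfl fun a _ => Finset.sum_congr rfl fun b _ => ?_
          ring
      _ = ∑ a, ∑ S ∈ J, ∑ b, c a b * (chi w z S * chi a b S) := Finset.sum_comm
      _ = ∑ a, ∑ b, ∑ S ∈ J, c a b * (chi w z S * chi a b S) :=
          Finset.sum_congr rfl fun a _ => Finset.sum_comm
      _ = ∑ a, ∑ b, c a b * M k w z a b := by
          refine Finset.sum_congr rfl fun a _ => Finset.sum_congr rfl fun b _ => ?_
          rw [← Finset.mul_sum]
          rfl
  -- the constant for disjoint pairs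
  obtain ⟨B, hB0, hBle, hBM, hBD⟩ : ∃ B : ℝ, 0 ≤ B ∧ B ≤ N₁ ∧
      (∀ w z a b : V, w ≠ z → w ≠ a → w ≠ b → z ≠ a → z ≠ b → a ≠ b → M k w z a b = B) ∧
      (B = 0 ∨ 4 ≤ Fintype.card V) := by
    by_cases h4 : ∃ w z a b : V, w ≠ z ∧ w ≠ a ∧ w ≠ b ∧ z ≠ a ∧ z ≠ b ∧ a ≠ b
    · obtain ⟨w, z, a, b, h1, h2, h3, h4, h5, h6⟩ := h4
      refine ⟨M k w z a b, M_nonneg _ _ _ _ _, ?_, ?_, Or.inr ?_⟩
      · rw [← hN w z h1]
        exact M_le k w z a b
      · intro w' z' a' b' g1 g2 g3 g4 g5 g6
        obtain ⟨σ, s1, s2, s3, s4⟩ := exists_perm4 h1 h2 h3 h4 h5 h6 g1 g2 g3 g4 g5 g6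
        rw [← s1, ← s2, ← s3, ← s4, M_perm]
      · exact four_le_card h1 h2 h3 h4 h5 h6
    · refine ⟨0, le_refl _, hN0, ?_, Or.inl rfl⟩
      intro w z a b g1 g2 g3 g4 g5 g6
      exact absurd ⟨w, z, a, b, g1, g2, g3, g4, g5, g6⟩ h4
  -- evaluation of `H`
  have hHval : ∀ w z, w ≠ z → H w z = (N₁ - 2 * B) * (s w + s z) + 2 * B * c w z := by
    intro w z hwz
    have hT' : ∑ a, ∑ b, c a b = 0 := hT
    have t0 : ∑ a, ∑ b, c a b * B = 0 := by
      simp only [← Finset.sum_mul, hT', zero_mul]
    have t1 : ∑ a, ∑ b, c a b * (if a = w then 1 else 0) = s w := dsum_left c w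
    have t2 : ∑ a, ∑ b, c a b * (if b = w then 1 else 0) = s w := by
      rw [dsum_right]
      exact Finset.sum_congr rfl fun a _ => hcs a w
    have t3 : ∑ a, ∑ b, c a b * (if a = z then 1 else 0) = s z := dsum_left c z
    have t4 : ∑ a, ∑ b, c a b * (if b = z then 1 else 0) = s z := by
      rw [dsum_right]
      exact Finset.sum_congr rfl fun a _ => hcs a z
    have t5 : ∑ a, ∑ b, c a b * ((if a = w then 1 else 0) * (if b = z then 1 else 0)) = c w z :=
      dsum_both c w z
    have t6 : ∑ a, ∑ b, c a b * ((if a = z then 1 else 0) * (if b = w then 1 else 0)) = c w z := by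
      rw [dsum_both, hcs]
    have hterm : ∀ a b, c a b * M k w z a b
        = c a b * B + (N₁ / 2 - B) * (c a b * (if a = w then 1 else 0)
            + c a b * (if b = w then 1 else 0) + c a b * (if a = z then 1 else 0)
            + c a b * (if b = z then 1 else 0))
          + B * (c a b * ((if a = w then 1 else 0) * (if b = z then 1 else 0))
            + c a b * ((if a = z then 1 else 0) * (if b = w then 1 else 0))) := by
      intro a b
      by_cases hab : a = b
      · rw [hab, hc0]
        simp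
      · rw [M_formula k hN hBM hwz hab]
        ring
    rw [hHM]
    simp only [hterm, Finset.sum_add_distrib, ← Finset.mul_sum]
    rw [t0, t1, t2, t3, t4, t5, t6]
    ring
  -- evaluation of `X`
  have hXval : X = (N₁ - 2 * B) * (2 * Sg) + 2 * B * Q := by
    rw [hXH]
    have hterm : ∀ w z, c w z * H w z
        = (N₁ - 2 * B) * (c w z * s w + c w z * s z) + 2 * B * (c w z ^ 2) := by
      intro w z
      by_cases hwz : w = z
      · rw [hwz, hc0]
        simp
      · rw [hHval w z hwz]
        ring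
    simp only [hterm, Finset.sum_add_distrib, ← Finset.mul_sum]
    have r1 : ∑ w, ∑ z, c w z * s w = Sg := sum_mul_row c
    have r2 : ∑ w, ∑ z, c w z * s z = Sg := sum_mul_col c hcs
    rw [r1, r2]
    ring
  -- the incidence inequality
  have hinc : 2 * Sg ≤ ((Fintype.card V : ℝ) - 2) * Q := incidence c hc0 hcs hT hD
  -- bound on `X`
  have hXle : X ≤ ((Fintype.card V : ℝ) - 2) * N₁ * Q := by
    rw [hXval]
    by_cases hcase : 0 ≤ N₁ - 2 * B
    · have h1 : (N₁ - 2 * B) * (2 * Sg) ≤ (N₁ - 2 * B) * (((Fintype.card V : ℝ) - 2) * Q) :=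
        mul_le_mul_of_nonneg_left hinc hcase
      have h2 : 0 ≤ B * (((Fintype.card V : ℝ) - 3) * Q) := by
        rcases hBD with hB | hB
        · rw [hB, zero_mul]
        · have : (4 : ℝ) ≤ (Fintype.card V : ℝ) := by exact_mod_cast hB
          exact mul_nonneg hB0 (mul_nonneg (by linarith) hQ0)
      nlinarith
    · have hcase' : N₁ - 2 * B < 0 := not_le.mp hcase
      have hBpos : 0 < B := by linarith
      have hD4 : (4 : ℝ) ≤ (Fintype.card V : ℝ) := by
        rcases hBD with hB | hB
        · exact absurd hB (ne_of_gt hBpos)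
        · exact_mod_cast hB
      have h1 : (N₁ - 2 * B) * (2 * Sg) ≤ 0 :=
        mul_nonpos_of_nonpos_of_nonneg hcase'.le (by linarith)
      have h2 : 2 * B * Q ≤ 2 * N₁ * Q :=
        mul_le_mul_of_nonneg_right (by linarith) hQ0
      have h3 : 2 * N₁ * Q ≤ ((Fintype.card V : ℝ) - 2) * N₁ * Q := by
        have : 0 ≤ N₁ * Q := mul_nonneg hN0 hQ0
        nlinarith
      linarith
  -- conclusion
  have hfin : Q ^ 2 ≤ (((Fintype.card V : ℝ) - 2) * N₁ * Ψ) * Q := by
    calc Q ^ 2 ≤ Ψ * X := hCS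
      _ ≤ Ψ * (((Fintype.card V : ℝ) - 2) * N₁ * Q) := mul_le_mul_of_nonneg_left hXle hΨ0
      _ = (((Fintype.card V : ℝ) - 2) * N₁ * Ψ) * Q := by ring
  by_cases hQz : Q = 0
  · rw [hQz]
    exact mul_nonneg (mul_nonneg (by linarith) hN0) hΨ0
  · have hQpos : 0 < Q := lt_of_le_of_ne hQ0 (Ne.symm hQz)
    rw [sq] at hfin
    exact le_of_mul_le_mul_right hfin hQpos

/-! ### Reformulations -/

omit [Fintype V] in
/-- The pairing with `chi` is the sum over the subsets split by the pair. -/
lemma sum_mul_chi (J : Finset (Finset V)) (ψ : Finset V → ℝ) (w z : V) :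
    ∑ S ∈ J, ψ S * chi w z S = ∑ S ∈ J with ¬ (w ∈ S ↔ z ∈ S), ψ S := by
  rw [Finset.sum_filter]
  refine Finset.sum_congr rfl fun S _ => ?_
  unfold chi
  by_cases h : (w ∈ S ↔ z ∈ S) <;> simp [h]

/-- `Nn k w z` is the number of `k`-subsets split by the pair `w`, `z`. -/
lemma Nn_eq_card (k : ℕ) (w z : V) :
    Nn k w z = (((univ : Finset V).powersetCard k).filter
      (fun S => ¬ (w ∈ S ↔ z ∈ S))).card := by
  have h := sum_mul_chi ((univ : Finset V).powersetCard k) (fun _ => (1 : ℝ)) w z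
  simp only [one_mul] at h
  unfold Nn
  rw [h]
  simp

/-- Closed form of the number of `k`-subsets split by a pair of distinct points:
`|V| (|V| - 1) N₁ = 2 k (|V| - k) C(|V|, k)`. -/
lemma Nn_total (k : ℕ) {w₀ z₀ : V} (h₀ : w₀ ≠ z₀) :
    (Fintype.card V : ℝ) * ((Fintype.card V : ℝ) - 1) * Nn k w₀ z₀
      = 2 * (k : ℝ) * ((Fintype.card V : ℝ) - k) * ((Fintype.card V).choose k : ℝ) := by
  have h1 : ∑ w : V, ∑ z : V, Nn k w z
      = 2 * (k : ℝ) * ((Fintype.card V : ℝ) - k) * ((Fintype.card V).choose k : ℝ) := by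
    calc ∑ w : V, ∑ z : V, Nn k w z
        = ∑ w : V, ∑ S ∈ (univ : Finset V).powersetCard k, ∑ z : V, chi w z S :=
          Finset.sum_congr rfl fun w _ => Finset.sum_comm
      _ = ∑ S ∈ (univ : Finset V).powersetCard k, ∑ w : V, ∑ z : V, chi w z S :=
          Finset.sum_comm
      _ = ∑ S ∈ (univ : Finset V).powersetCard k,
            2 * (k : ℝ) * ((Fintype.card V : ℝ) - k) := by
          refine Finset.sum_congr rfl fun S hS => ?_
          rw [sum_sum_chi, (Finset.mem_powersetCard.mp hS).2]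
      _ = 2 * (k : ℝ) * ((Fintype.card V : ℝ) - k) * ((Fintype.card V).choose k : ℝ) := by
          rw [Finset.sum_const, Finset.card_powersetCard, Finset.card_univ, nsmul_eq_mul]
          ring
  obtain ⟨N, hN⟩ : ∃ N : ℝ, N = Nn k w₀ z₀ := ⟨_, rfl⟩
  have h2 : ∀ w z : V, Nn k w z = N - (if w = z then N else 0) := by
    intro w z
    by_cases hwz : w = z
    · subst hwz
      have : Nn k w w = 0 := by
        unfold Nn
        simp [chi_self]
      simp [this]
    · simp [hwz, Nn_eq k hwz h₀, hN]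
  rw [← h1, ← hN]
  simp only [h2, Finset.sum_sub_distrib, Finset.sum_ite_eq, Finset.mem_univ, if_true,
    Finset.sum_const, Finset.card_univ, nsmul_eq_mul]
  ring

/-- The covariance bound with the sums written over the subsets split by the pair. -/
theorem johnson_cov_sq_le_filter (k : ℕ) (ψ : Finset V → ℝ)
    (hψ : ∑ S ∈ (univ : Finset V).powersetCard k, ψ S = 0) {w₀ z₀ : V} (h₀ : w₀ ≠ z₀) :
    ∑ w, ∑ z, (∑ S ∈ (univ : Finset V).powersetCard k with ¬ (w ∈ S ↔ z ∈ S), ψ S) ^ 2
      ≤ ((Fintype.card V : ℝ) - 2)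
          * ((((univ : Finset V).powersetCard k).filter
              (fun S => ¬ (w₀ ∈ S ↔ z₀ ∈ S))).card : ℝ)
          * ∑ S ∈ (univ : Finset V).powersetCard k, ψ S ^ 2 := by
  have h := johnson_cov_sq_le k ψ hψ h₀
  simp only [sum_mul_chi] at h
  rw [Nn_eq_card] at h
  exact h

end Vale.Agent.H32.KTV
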