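import Vale.Agent.H32.KTV.JohnsonCov

/-!
# The Johnson surplus inequality from the Johnson gap (support for P335)

Transfer of the covariance bound of `JohnsonCov` to the `k`-subsets of a finset `A`, and the
surplus inequality (Step 4 of the simple-graph proof) as a consequence of the sharp Johnson
Poincare inequality, which is taken as a hypothesis here.
-/

namespace Vale.Agent.H32.KTV

open Finset

variable {α : Type*} [DecidableEq α]

omit [DecidableEq α] in
/-- Sums over the `k`-subsets of the subtype of `A` are sums over the `k`-subsets of `A`. -/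
lemma sum_powersetCard_coe (A : Finset α) (k : ℕ) (g : Finset α → ℝ) :
    ∑ S ∈ (univ : Finset {x // x ∈ A}).powersetCard k,
        g (S.map (Function.Embedding.subtype _))
      = ∑ T ∈ A.powersetCard k, g T := by
  have hA : A.powersetCard k
      = ((univ : Finset {x // x ∈ A}).powersetCard k).map
          (Finset.mapEmbedding (Function.Embedding.subtype _)).toEmbedding := by
    rw [← Finset.powersetCard_map, Finset.univ_eq_attach, Finset.attach_map_val]
  rw [hA, Finset.sum_map]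
  rfl

lemma chi_coe (A : Finset α) (w z : {x // x ∈ A}) (S : Finset {x // x ∈ A}) :
    chi w z S = chi (w : α) (z : α) (S.map (Function.Embedding.subtype _)) := by
  unfold chi
  simp

/-- The number of `k`-subsets of `A` split by a pair of distinct points of `A` does not depend
on the pair. -/
lemma splitCount_eq (A : Finset α) (k : ℕ) {w z w' z' : α} (hw : w ∈ A) (hz : z ∈ A)
    (hw' : w' ∈ A) (hz' : z' ∈ A) (h : w ≠ z) (h' : w' ≠ z') :
    ∑ T ∈ A.powersetCard k, chi w z T = ∑ T ∈ A.powersetCard k, chi w' z' T := by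
  have key := Nn_eq (V := {x // x ∈ A}) k (w := ⟨w, hw⟩) (z := ⟨z, hz⟩) (x := ⟨w', hw'⟩)
    (y := ⟨z', hz'⟩) (fun e => h (congrArg Subtype.val e)) (fun e => h' (congrArg Subtype.val e))
  unfold Nn at key
  simp only [chi_coe] at key
  rw [sum_powersetCard_coe A k (fun T => chi w z T),
    sum_powersetCard_coe A k (fun T => chi w' z' T)] at key
  exact key

/-- The covariance bound on the `k`-subsets of a finset `A`. -/
theorem johnson_cov_finset (A : Finset α) (k : ℕ) (ψ : Finset α → ℝ)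
    (hψ : ∑ T ∈ A.powersetCard k, ψ T = 0) {w₀ z₀ : α} (hw : w₀ ∈ A) (hz : z₀ ∈ A)
    (h₀ : w₀ ≠ z₀) :
    ∑ w ∈ A, ∑ z ∈ A, (∑ T ∈ A.powersetCard k, ψ T * chi w z T) ^ 2
      ≤ ((A.card : ℝ) - 2) * (∑ T ∈ A.powersetCard k, chi w₀ z₀ T)
          * ∑ T ∈ A.powersetCard k, ψ T ^ 2 := by
  have key := johnson_cov_sq_le (V := {x // x ∈ A}) k
    (fun S => ψ (S.map (Function.Embedding.subtype _)))
    (by rw [sum_powersetCard_coe A k ψ]; exact hψ)
    (w₀ := ⟨w₀, hw⟩) (z₀ := ⟨z₀, hz⟩) (fun e => h₀ (congrArg Subtype.val e))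
  unfold Nn at key
  simp only [chi_coe] at key
  rw [sum_powersetCard_coe A k (fun T => chi w₀ z₀ T),
    sum_powersetCard_coe A k (fun T => ψ T ^ 2), Fintype.card_coe] at key
  have e : ∀ w z : {x // x ∈ A},
      ∑ S ∈ (univ : Finset {x // x ∈ A}).powersetCard k,
        ψ (S.map (Function.Embedding.subtype _))
          * chi (w : α) (z : α) (S.map (Function.Embedding.subtype _))
        = ∑ T ∈ A.powersetCard k, ψ T * chi (w : α) (z : α) T :=
    fun w z => sum_powersetCard_coe A k (fun T => ψ T * chi (w : α) (z : α) T)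
  simp only [e] at key
  have e2 : ∑ w : {x // x ∈ A}, ∑ z : {x // x ∈ A},
        (∑ T ∈ A.powersetCard k, ψ T * chi (w : α) (z : α) T) ^ 2
      = ∑ w ∈ A, ∑ z ∈ A, (∑ T ∈ A.powersetCard k, ψ T * chi w z T) ^ 2 := by
    rw [← Finset.sum_coe_sort A]
    refine Finset.sum_congr rfl fun w _ => ?_
    rw [← Finset.sum_coe_sort A]
  rw [e2] at key
  exact key

/-- Sums over the subsets split by a pair, written with `chi`. -/
lemma sum_filter_ne (J : Finset (Finset α)) (g : Finset α → ℝ) (w z : α) :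
    ∑ T ∈ J.filter (fun T => (w ∈ T) ≠ (z ∈ T)), g T = ∑ T ∈ J, g T * chi w z T := by
  rw [sum_mul_chi]
  refine Finset.sum_congr (Finset.filter_congr fun T _ => ?_) fun _ _ => rfl
  simp [Ne, eq_iff_iff]

/-- **The Johnson surplus inequality, given the sharp Johnson Poincare inequality.**
`A` is a finset (the free points), the states are the `k`-subsets `T` of `A`; the hypothesis
`hgap` is the Poincare inequality of the Johnson graph with constant `|A|` (both endpoints of
an edge are counted on the right). -/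
theorem johnson_surplus_of_gap (A : Finset α) (k : ℕ) (f : Finset α → ℝ)
    (hgap : 2 * (A.card : ℝ) * (∑ T ∈ A.powersetCard k,
        (f T - (∑ S ∈ A.powersetCard k, f S) / ((A.powersetCard k).card : ℝ)) ^ 2)
      ≤ ∑ T ∈ A.powersetCard k, ∑ x ∈ T, ∑ y ∈ A \ T, (f T - f (insert y (T.erase x))) ^ 2) :
    2 * ∑ w ∈ A, ∑ z ∈ A.erase w,
        (((A.powersetCard k).filter (fun T => (w ∈ T) ≠ (z ∈ T))).card : ℝ) *
          ((∑ T ∈ (A.powersetCard k).filter (fun T => (w ∈ T) ≠ (z ∈ T)), f T) /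
              (((A.powersetCard k).filter (fun T => (w ∈ T) ≠ (z ∈ T))).card : ℝ)
            - (∑ T ∈ A.powersetCard k, f T) / ((A.powersetCard k).card : ℝ)) ^ 2
      + 4 * ∑ T ∈ A.powersetCard k,
          (f T - (∑ S ∈ A.powersetCard k, f S) / ((A.powersetCard k).card : ℝ)) ^ 2
      ≤ ∑ T ∈ A.powersetCard k, ∑ x ∈ T, ∑ y ∈ A \ T,
          (f T - f (insert y (T.erase x))) ^ 2 := by
  set J := A.powersetCard k with hJ
  set μ : ℝ := (∑ T ∈ J, f T) / (J.card : ℝ) with hμ
  set Ψ : ℝ := ∑ T ∈ J, (f T - μ) ^ 2 with hΨ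
  have hΨ0 : 0 ≤ Ψ := Finset.sum_nonneg fun _ _ => sq_nonneg _
  -- the centred function has mean zero
  have hψ : ∑ T ∈ J, (f T - μ) = 0 := by
    rw [Finset.sum_sub_distrib, Finset.sum_const, nsmul_eq_mul]
    by_cases hc : (J.card : ℝ) = 0
    · have hc' : J.card = 0 := by exact_mod_cast hc
      have hJe : J = ∅ := Finset.card_eq_zero.mp hc'
      rw [hc, hJe]
      simp
    · rw [hμ]
      field_simp
      ring
  -- every term in the form of a squared pairing with `chi`
  have hterm : ∀ w z : α,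
      ((J.filter (fun T => (w ∈ T) ≠ (z ∈ T))).card : ℝ) *
          ((∑ T ∈ J.filter (fun T => (w ∈ T) ≠ (z ∈ T)), f T) /
              ((J.filter (fun T => (w ∈ T) ≠ (z ∈ T))).card : ℝ) - μ) ^ 2
        = (∑ T ∈ J, (f T - μ) * chi w z T) ^ 2 / (∑ T ∈ J, chi w z T) := by
    intro w z
    have hn : ((J.filter (fun T => (w ∈ T) ≠ (z ∈ T))).card : ℝ) = ∑ T ∈ J, chi w z T := by
      have h := sum_filter_ne J (fun _ => (1 : ℝ)) w z
      simpa using h
    have hs : ∑ T ∈ J.filter (fun T => (w ∈ T) ≠ (z ∈ T)), f T = ∑ T ∈ J, f T * chi w z T :=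
      sum_filter_ne J f w z
    have hb : ∑ T ∈ J, (f T - μ) * chi w z T
        = (∑ T ∈ J, f T * chi w z T) - μ * ∑ T ∈ J, chi w z T := by
      rw [Finset.mul_sum, ← Finset.sum_sub_distrib]
      exact Finset.sum_congr rfl fun T _ => by ring
    rw [hn, hs, hb]
    by_cases h0 : ∑ T ∈ J, chi w z T = 0
    · rw [h0]
      simp
    · field_simp
  simp only [hterm]
  by_cases hpair : ∃ w₀ ∈ A, ∃ z₀ ∈ A, w₀ ≠ z₀
  · obtain ⟨w₀, hw, z₀, hz, h₀⟩ := hpair
    have hN0 : 0 ≤ ∑ T ∈ J, chi w₀ z₀ T := Finset.sum_nonneg fun _ _ => chi_nonneg _ _ _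
    have hcard : (2 : ℝ) ≤ (A.card : ℝ) := by
      have h1 : 1 < A.card := Finset.one_lt_card.mpr ⟨w₀, hw, z₀, hz, h₀⟩
      exact_mod_cast h1
    have hcov := johnson_cov_finset A k (fun T => f T - μ) hψ hw hz h₀
    have hinner : ∑ w ∈ A, ∑ z ∈ A.erase w,
          (∑ T ∈ J, (f T - μ) * chi w z T) ^ 2 / (∑ T ∈ J, chi w z T)
        = (∑ w ∈ A, ∑ z ∈ A, (∑ T ∈ J, (f T - μ) * chi w z T) ^ 2)
            / (∑ T ∈ J, chi w₀ z₀ T) := by
      rw [Finset.sum_div]
      refine Finset.sum_congr rfl fun w hwA => ?_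
      rw [Finset.sum_div]
      have hdiag : (∑ T ∈ J, (f T - μ) * chi w w T) ^ 2 / (∑ T ∈ J, chi w₀ z₀ T) = 0 := by
        simp [chi_self]
      rw [← Finset.sum_erase A hdiag]
      refine Finset.sum_congr rfl fun z hz' => ?_
      have hzA := Finset.mem_of_mem_erase hz'
      have hne : z ≠ w := Finset.ne_of_mem_erase hz'
      rw [splitCount_eq A k hwA hzA hw hz (Ne.symm hne) h₀]
    rw [hinner]
    have hle : (∑ w ∈ A, ∑ z ∈ A, (∑ T ∈ J, (f T - μ) * chi w z T) ^ 2)
          / (∑ T ∈ J, chi w₀ z₀ T) ≤ ((A.card : ℝ) - 2) * Ψ := by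
      by_cases hN : ∑ T ∈ J, chi w₀ z₀ T = 0
      · rw [hN, div_zero]
        exact mul_nonneg (by linarith) hΨ0
      · have hNpos : 0 < ∑ T ∈ J, chi w₀ z₀ T := lt_of_le_of_ne hN0 (Ne.symm hN)
        rw [div_le_iff₀ hNpos]
        calc ∑ w ∈ A, ∑ z ∈ A, (∑ T ∈ J, (f T - μ) * chi w z T) ^ 2
            ≤ ((A.card : ℝ) - 2) * (∑ T ∈ J, chi w₀ z₀ T) * Ψ := hcov
          _ = ((A.card : ℝ) - 2) * Ψ * (∑ T ∈ J, chi w₀ z₀ T) := by ring
    linarith
  · have hsub : ∀ a ∈ A, ∀ b ∈ A, a = b := by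
      intro a ha b hb
      by_contra hab
      exact hpair ⟨a, ha, b, hb, hab⟩
    have hAcard : A.card ≤ 1 := Finset.card_le_one.mpr hsub
    have hTT : ∀ T ∈ J, ∀ T' ∈ J, T = T' := by
      intro T hT T' hT'
      rw [hJ, Finset.mem_powersetCard] at hT hT'
      rcases Nat.eq_zero_or_pos k with hk | hk
      · rw [hk] at hT hT'
        rw [Finset.card_eq_zero.mp hT.2, Finset.card_eq_zero.mp hT'.2]
      · have h1 : T = A := Finset.eq_of_subset_of_card_le hT.1 (by omega)
        have h2 : T' = A := Finset.eq_of_subset_of_card_le hT'.1 (by omega)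
        rw [h1, h2]
    have hΨz : Ψ = 0 := by
      rw [hΨ]
      refine Finset.sum_eq_zero fun T hT => ?_
      have hsum : ∑ S ∈ J, f S = (J.card : ℝ) * f T := by
        rw [← nsmul_eq_mul, ← Finset.sum_const]
        exact Finset.sum_congr rfl fun S hS => by rw [hTT S hS T hT]
      have hc1 : J.card = 1 :=
        le_antisymm (Finset.card_le_one.mpr hTT) (Finset.card_pos.mpr ⟨T, hT⟩)
      rw [hμ, hsum, hc1]
      simp
    have hL0 : ∀ G : α → α → ℝ, ∑ w ∈ A, ∑ z ∈ A.erase w, G w z = 0 := by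
      intro G
      refine Finset.sum_eq_zero fun w hw => ?_
      have he : A.erase w = ∅ := by
        rw [Finset.eq_empty_iff_forall_notMem]
        intro z hz
        exact Finset.ne_of_mem_erase hz (hsub z (Finset.mem_of_mem_erase hz) w hw)
      rw [he, Finset.sum_empty]
    rw [hL0, hΨz]
    rw [hΨz] at hgap
    linarith

end Vale.Agent.H32.KTV
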